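import Mathlib

namespace Vale.P235.H114

open Finset

/-- harmonic lower bound -/
lemma harm (N : ℕ) (hN : 1 ≤ N) (K : ℕ) :
    (K : ℚ) / 2 ≤ ∑ s ∈ range (N * (2 ^ K - 1)), (1 : ℚ) / (N + s) := by
  induction K with
  | zero => simp
  | succ K ih =>
    have h1 : N * (2 ^ (K + 1) - 1) = N * (2 ^ K - 1) + N * 2 ^ K := by
      have : 1 ≤ 2 ^ K := Nat.one_le_two_pow
      rw [pow_succ]
      have h2 : 2 ^ K * 2 - 1 = (2 ^ K - 1) + 2 ^ K := by omega
      rw [h2]; ring
    rw [h1, Finset.sum_range_add]
    have h3 : (1 : ℚ) / 2 ≤ ∑ x ∈ range (N * 2 ^ K),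
        (1 : ℚ) / (N + ((N * (2 ^ K - 1) + x : ℕ) : ℚ)) := by
      have h4 : ∀ x ∈ range (N * 2 ^ K), (1 : ℚ) / (N * 2 ^ (K + 1)) ≤
          (1 : ℚ) / (N + ((N * (2 ^ K - 1) + x : ℕ) : ℚ)) := by
        intro x hx
        rw [mem_range] at hx
        apply one_div_le_one_div_of_le
        · have : (0 : ℚ) < N := by exact_mod_cast hN
          positivity
        · have h5 : N + (N * (2 ^ K - 1) + x) ≤ N * 2 ^ (K + 1) := by
            have : 1 ≤ 2 ^ K := Nat.one_le_two_pow
            have h6 : N + N * (2 ^ K - 1) = N * 2 ^ K := by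
              calc N + N * (2 ^ K - 1) = N * ((2 ^ K - 1) + 1) := by ring
                _ = N * 2 ^ K := by congr 1; omega
            rw [pow_succ]
            calc N + (N * (2 ^ K - 1) + x) = N * 2 ^ K + x := by omega
              _ ≤ N * 2 ^ K + N * 2 ^ K := by omega
              _ = N * (2 ^ K * 2) := by ring
          exact_mod_cast h5
      calc (1 : ℚ) / 2 = ∑ _x ∈ range (N * 2 ^ K), (1 : ℚ) / (N * 2 ^ (K + 1)) := by
            rw [sum_const, card_range, nsmul_eq_mul]
            have : (0 : ℚ) < N := by exact_mod_cast hN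
            push_cast
            field_simp
            ring
        _ ≤ _ := sum_le_sum h4
    push_cast at h3 ih ⊢
    linarith

/-- Lemma A, abstract right-hand form. -/
lemma lemmaA {ι : Type*} [DecidableEq ι] (Bd : Finset ι) (j a : ι → ℕ) (m K : ℕ)
    (hj : Set.InjOn j Bd) (ha : ∀ i ∈ Bd, a i ≤ m)
    (hbad : ∀ i ∈ Bd, (Bd.filter fun i' => j i' ≤ j i ∧ j i < a i').card * (2 ^ K - 1) ≤ a i - j i)
    (hlt : ∀ i ∈ Bd, j i < a i) :
    Bd.card * K ≤ 2 * m := by
  classical
  set N : ℕ → ℕ := fun y => (Bd.filter fun i' => j i' ≤ y ∧ y < a i').card with hN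
  have hN1 : ∀ i ∈ Bd, 1 ≤ N (j i) := by
    intro i hi
    apply Finset.card_pos.mpr
    exact ⟨i, by simp [hi, hlt i hi]⟩
  have hgrow : ∀ y s, N (y + s) ≤ N y + s := by
    intro y s
    have h1 : (Bd.filter fun i' => j i' ≤ y + s ∧ y + s < a i') ⊆
        (Bd.filter fun i' => j i' ≤ y ∧ y < a i') ∪
          (Bd.filter fun i' => j i' ∈ Finset.Ioc y (y + s)) := by
      intro i hi
      simp only [mem_filter, mem_union, mem_Ioc] at hi ⊢
      by_cases h : j i ≤ y
      · left; exact ⟨hi.1, h, by omega⟩
      · right; exact ⟨hi.1, by omega, hi.2.1⟩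
    have h2 : (Bd.filter fun i' => j i' ∈ Finset.Ioc y (y + s)).card ≤ s := by
      calc (Bd.filter fun i' => j i' ∈ Finset.Ioc y (y + s)).card
          ≤ (Finset.Ioc y (y + s)).card := by
            apply Finset.card_le_card_of_injOn j
            · intro i hi
              simp only [coe_filter, Set.mem_ofPred_eq] at hi
              exact_mod_cast hi.2
            · intro i hi i' hi' h
              simp only [coe_filter, Set.mem_ofPred_eq] at hi hi'
              exact hj hi.1 hi'.1 h
        _ = s := by simp
    calc N (y + s) ≤ _ := card_le_card h1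
      _ ≤ _ := card_union_le _ _
      _ ≤ N y + s := Nat.add_le_add_left h2 _
  have key : ∀ i ∈ Bd, (K : ℚ) / 2 ≤ ∑ y ∈ Finset.Ico (j i) (a i), (1 : ℚ) / N y := by
    intro i hi
    have h1 := harm (N (j i)) (hN1 i hi) K
    have h2 : N (j i) * (2 ^ K - 1) ≤ a i - j i := hbad i hi
    calc (K : ℚ) / 2 ≤ ∑ s ∈ range (N (j i) * (2 ^ K - 1)), (1 : ℚ) / (N (j i) + s) := h1
      _ ≤ ∑ s ∈ range (a i - j i), (1 : ℚ) / (N (j i) + s) := by
          apply Finset.sum_le_sum_of_subset_of_nonneg
          · exact Finset.range_subset_range.mpr h2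
          · intro s _ _; positivity
      _ ≤ ∑ s ∈ range (a i - j i), (1 : ℚ) / N (j i + s) := by
          apply Finset.sum_le_sum
          intro s hs
          rw [mem_range] at hs
          apply one_div_le_one_div_of_le
          · have : 1 ≤ N (j i + s) := by
              apply Finset.card_pos.mpr
              exact ⟨i, by simp only [mem_filter]; exact ⟨hi, by omega, by omega⟩⟩
            exact_mod_cast this
          · have := hgrow (j i) s
            exact_mod_cast this
      _ = ∑ y ∈ Finset.Ico (j i) (a i), (1 : ℚ) / N y := by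
          rw [Finset.sum_Ico_eq_sum_range]
  have h5 : (Bd.card : ℚ) * (K / 2) ≤ m := by
    calc (Bd.card : ℚ) * (K / 2) = ∑ _i ∈ Bd, (K : ℚ) / 2 := by
          rw [sum_const, nsmul_eq_mul]
      _ ≤ ∑ i ∈ Bd, ∑ y ∈ Finset.Ico (j i) (a i), (1 : ℚ) / N y := sum_le_sum key
      _ = ∑ i ∈ Bd, ∑ y ∈ range m, if (j i ≤ y ∧ y < a i) then (1 : ℚ) / N y else 0 := by
          apply sum_congr rfl
          intro i hi
          rw [← Finset.sum_filter]
          apply Finset.sum_congr _ (fun _ _ => rfl)
          ext y
          simp only [mem_Ico, mem_filter, mem_range]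
          have := ha i hi
          omega
      _ = ∑ y ∈ range m, ∑ i ∈ Bd, if (j i ≤ y ∧ y < a i) then (1 : ℚ) / N y else 0 :=
          sum_comm
      _ ≤ ∑ _y ∈ range m, (1 : ℚ) := by
          apply sum_le_sum
          intro y _
          rw [← Finset.sum_filter, sum_const, nsmul_eq_mul]
          have : ((Bd.filter fun i' => j i' ≤ y ∧ y < a i').card : ℚ) = N y := rfl
          rw [this]
          by_cases h : (N y : ℚ) = 0
          · rw [h]; simp
          · rw [mul_one_div_cancel h]
      _ = m := by simp
  have h6 : (Bd.card : ℚ) * K ≤ 2 * m := by linarith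
  exact_mod_cast h6

/-- weighted double counting -/
lemma wcount {S T : Type*} [DecidableEq S] [DecidableEq T] (s : Finset S) (t : Finset T)
    (R : S → T → Prop) [∀ a b, Decidable (R a b)] (p : S → ℕ) (P : T → ℕ) (C : ℕ)
    (hp1 : ∀ a ∈ s, 1 ≤ p a)
    (hpP : ∀ a ∈ s, ∀ b ∈ t, R a b → p a = P b)
    (hout : ∀ a ∈ s, p a ≤ (t.filter fun b => R a b).card)
    (hin : ∀ b ∈ t, (s.filter fun a => R a b).card ≤ C * P b) :
    s.card ≤ C * t.card := by
  classical
  -- fibre by the value of p
  have h1 : ∀ n, (s.filter fun a => p a = n).card ≤ C * (t.filter fun b => P b = n).card := by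
    intro n
    rcases Nat.eq_zero_or_pos n with hn | hn
    · subst hn
      have : (s.filter fun a => p a = 0) = ∅ := by
        apply Finset.filter_eq_empty_iff.mpr
        intro a ha h
        have := hp1 a ha
        omega
      rw [this]; simp
    · have h2 := Finset.card_mul_le_card_mul (s := s.filter fun a => p a = n)
        (t := t.filter fun b => P b = n) R (m := n) (n := C * n) ?_ ?_
      · have h3 : (s.filter fun a => p a = n).card * n ≤
            (C * (t.filter fun b => P b = n).card) * n := by
          calc _ ≤ _ := h2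
            _ = _ := by ring
        exact Nat.le_of_mul_le_mul_right h3 hn
      · intro a ha
        rw [mem_filter] at ha
        calc n = p a := ha.2.symm
          _ ≤ (t.filter fun b => R a b).card := hout a ha.1
          _ ≤ _ := by
            apply card_le_card
            intro b hb
            simp only [mem_filter, bipartiteAbove] at hb ⊢
            exact ⟨⟨hb.1, by rw [← hpP a ha.1 b hb.1 hb.2]; exact ha.2⟩, hb.2⟩
      · intro b hb
        rw [mem_filter] at hb
        calc _ ≤ (s.filter fun a => R a b).card := by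
              apply card_le_card
              intro a ha
              simp only [mem_filter, bipartiteBelow] at ha ⊢
              exact ⟨ha.1.1, ha.2⟩
          _ ≤ C * P b := hin b hb.1
          _ = C * n := by rw [hb.2]
  have hs : s.card = ∑ n ∈ (s.image p ∪ t.image P), (s.filter fun a => p a = n).card := by
    apply Finset.card_eq_sum_card_fiberwise
    intro a ha
    simp only [coe_union, coe_image, Set.mem_union, Set.mem_image, mem_coe]
    left; exact ⟨a, ha, rfl⟩
  have ht : t.card = ∑ n ∈ (s.image p ∪ t.image P), (t.filter fun b => P b = n).card := by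
    apply Finset.card_eq_sum_card_fiberwise
    intro b hb
    simp only [coe_union, coe_image, Set.mem_union, Set.mem_image, mem_coe]
    right; exact ⟨b, hb, rfl⟩
  rw [hs, ht, mul_sum]
  exact sum_le_sum fun n _ => h1 n

/-- one sided discrete maximal inequality -/
def Clu (Y : Finset ℕ) (n y : ℕ) : Prop :=
  ∃ l, 1 ≤ l ∧ y + l ≤ n ∧ l ≤ 2 * (Y.filter fun u => y ≤ u ∧ u < y + l).card

open Classical in
lemma cluster (Y : Finset ℕ) (n : ℕ) : ∀ d s : ℕ, d = n - s →
    (((Finset.Ico s n).filter fun y => Clu Y n y).card) ≤
      2 * (Y.filter fun u => s ≤ u ∧ u < n).card := by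
  intro d
  induction d using Nat.strong_induction_on with
  | _ d ih =>
    intro s hd
    by_cases hsn : n ≤ s
    · have : Finset.Ico s n = ∅ := Finset.Ico_eq_empty (by omega)
      rw [this]; simp
    · push Not at hsn
      by_cases hs : ∃ l, 1 ≤ l ∧ s + l ≤ n ∧
          l ≤ 2 * (Y.filter fun u => s ≤ u ∧ u < s + l).card
      · obtain ⟨l, hl1, hl2, hl3⟩ := hs
        have ih1 := ih (n - (s + l)) (by omega) (s + l) rfl
        have hsub : ((Finset.Ico s n).filter fun y => Clu Y n y) ⊆
            (Finset.Ico s (s + l)) ∪ ((Finset.Ico (s + l) n).filter fun y => Clu Y n y) := by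
          intro y hy
          simp only [mem_filter, mem_union, mem_Ico] at hy ⊢
          by_cases h : y < s + l
          · left; exact ⟨hy.1.1, h⟩
          · right; exact ⟨⟨by omega, hy.1.2⟩, hy.2⟩
        have hY : (Y.filter fun u => s ≤ u ∧ u < n).card =
            (Y.filter fun u => s ≤ u ∧ u < s + l).card + (Y.filter fun u => s + l ≤ u ∧ u < n).card := by
          rw [← Finset.card_union_of_disjoint]
          · congr 1
            ext u
            simp only [mem_filter, mem_union]
            constructor
            · rintro ⟨h1, h2, h3⟩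
              by_cases h : u < s + l
              · left; exact ⟨h1, h2, h⟩
              · right; exact ⟨h1, by omega, h3⟩
            · rintro (⟨h1, h2, h3⟩ | ⟨h1, h2, h3⟩)
              · exact ⟨h1, h2, by omega⟩
              · exact ⟨h1, by omega, h3⟩
          · rw [Finset.disjoint_left]
            intro u hu hu'
            simp only [mem_filter] at hu hu'
            omega
        calc _ ≤ _ := card_le_card hsub
          _ ≤ _ := card_union_le _ _
          _ ≤ l + 2 * (Y.filter fun u => s + l ≤ u ∧ u < n).card := by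
              apply Nat.add_le_add _ ih1
              simp
          _ ≤ _ := by rw [hY]; omega
      · have ih1 := ih (n - (s + 1)) (by omega) (s + 1) rfl
        have hsub : ((Finset.Ico s n).filter fun y => Clu Y n y) ⊆
            ((Finset.Ico (s + 1) n).filter fun y => Clu Y n y) := by
          intro y hy
          simp only [mem_filter, mem_Ico] at hy ⊢
          have hne : y ≠ s := by
            rintro rfl
            exact hs hy.2
          exact ⟨⟨by omega, hy.1.2⟩, hy.2⟩
        calc _ ≤ _ := card_le_card hsub
          _ ≤ _ := ih1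
          _ ≤ _ := by
            apply Nat.mul_le_mul_left
            apply card_le_card
            intro u hu
            simp only [mem_filter] at hu ⊢
            exact ⟨hu.1, by omega, hu.2.2⟩

end Vale.P235.H114
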